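import Vale.Agent.P074.H91.General

open MeasureTheory Set
open scoped ENNReal NNReal

namespace Vale.Agent.P074.H91

theorem volume_box {d : ℕ} (a b : Fin d → ℝ) :
    volume {x : Sp d | ∀ i, x i ∈ Icc (a i) (b i)} = ∏ i, ENNReal.ofReal (b i - a i) := by
  have h : {x : Sp d | ∀ i, x i ∈ Icc (a i) (b i)} = WithLp.ofLp ⁻¹' (Icc a b) := by
    ext x
    simp [Pi.le_def, forall_and]
  rw [h, (PiLp.volume_preserving_ofLp (Fin d)).measure_preimage measurableSet_Icc.nullMeasurableSet,
    Real.volume_Icc_pi]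

/-- The unit cube centred at the origin. -/
def cube (d : ℕ) : Set (Sp d) := {x | ∀ i, x i ∈ Icc (-(1 / 2) : ℝ) (1 / 2)}

theorem isCompact_cube (d : ℕ) : IsCompact (cube d) := by
  have h : cube d = WithLp.toLp 2 '' (Icc (fun _ => -(1 / 2) : Fin d → ℝ) (fun _ => 1 / 2)) := by
    ext x
    constructor
    · intro hx
      refine ⟨WithLp.ofLp x, ?_, rfl⟩
      exact ⟨fun i => (hx i).1, fun i => (hx i).2⟩
    · rintro ⟨y, hy, rfl⟩ i
      exact ⟨hy.1 i, hy.2 i⟩
  rw [h]
  exact isCompact_Icc.image (PiLp.continuous_toLp 2 _)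

theorem measurableSet_cube (d : ℕ) : MeasurableSet (cube d) :=
  (isCompact_cube d).isClosed.measurableSet

theorem convex_cube (d : ℕ) : Convex ℝ (cube d) := by
  intro x hx y hy s t hs ht hst i
  have hx1 := (hx i).1
  have hx2 := (hx i).2
  have hy1 := (hy i).1
  have hy2 := (hy i).2
  simp only [PiLp.add_apply, PiLp.smul_apply, smul_eq_mul, mem_Icc]
  constructor <;> nlinarith

theorem interior_cube_nonempty (d : ℕ) : (interior (cube d)).Nonempty := by
  refine ⟨0, mem_interior.mpr ⟨Metric.ball 0 (1 / 2), ?_, Metric.isOpen_ball, by simp⟩⟩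
  intro x hx i
  have h1 : ‖x i‖ ≤ ‖x‖ := PiLp.norm_apply_le x i
  have h2 : ‖x‖ < 1 / 2 := by simpa using hx
  rw [Real.norm_eq_abs] at h1
  have := abs_le.mp (h1.trans h2.le)
  exact ⟨this.1, this.2⟩

theorem volume_cube (d : ℕ) : volume (cube d) = 1 := by
  unfold cube
  rw [volume_box]
  norm_num

theorem unif_cube (d : ℕ) : unif (cube d) = volume.restrict (cube d) := by
  simp [unif, volume_cube]

end Vale.Agent.P074.H91
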