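import Mathlib

open MeasureTheory Set
open scoped ENNReal NNReal

namespace Vale.Agent.P074.H91

/-- Euclidean space of dimension `d`. -/
abbrev Sp (d : ℕ) := EuclideanSpace ℝ (Fin d)

/-- The uniform probability measure on `K`. -/
noncomputable def unif {d : ℕ} (K : Set (Sp d)) : Measure (Sp d) :=
  (volume K)⁻¹ • volume.restrict K

/-- The quadratic transport cost of a map. -/
noncomputable def mapCost {d : ℕ} (ρ : Measure (Sp d)) (T : Sp d → Sp d) : ℝ≥0∞ :=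
  ∫⁻ x, edist x (T x) ^ 2 ∂ρ

/-- `T` is a quadratic optimal transport map from `ρ` to `μ`. -/
structure IsOptimalMap {d : ℕ} (ρ μ : Measure (Sp d)) (T : Sp d → Sp d) : Prop where
  measurable : Measurable T
  map_eq : ρ.map T = μ
  le_cost : ∀ S : Sp d → Sp d, Measurable S → ρ.map S = μ → mapCost ρ T ≤ mapCost ρ S

/-- The quadratic Wasserstein distance, as an infimum over couplings. -/
noncomputable def W2 {d : ℕ} (μ ν : Measure (Sp d)) : ℝ≥0∞ :=
  (⨅ π : Measure (Sp d × Sp d), ⨅ (_ : π.map Prod.fst = μ ∧ π.map Prod.snd = ν),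
    ∫⁻ p, edist p.1 p.2 ^ 2 ∂π) ^ (1 / 2 : ℝ)

/-- The distance in `L²(ρ)` between two maps. -/
noncomputable def L2dist {d : ℕ} (ρ : Measure (Sp d)) (T S : Sp d → Sp d) : ℝ≥0∞ :=
  (∫⁻ x, edist (T x) (S x) ^ 2 ∂ρ) ^ (1 / 2 : ℝ)

/-- The exponent `α` is admissible in dimension `d`. -/
def Admissible (d : ℕ) (α : ℝ) : Prop :=
  ∀ K : Set (Sp d), IsCompact K → Convex ℝ K → (interior K).Nonempty →
  ∀ Y : Set (Sp d), IsCompact Y → Y.Nonempty →
  ∃ C : ℝ≥0, ∀ μ ν : Measure (Sp d), IsProbabilityMeasure μ → IsProbabilityMeasure ν →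
    μ (Y)ᶜ = 0 → ν (Y)ᶜ = 0 →
    ∀ T S : Sp d → Sp d, IsOptimalMap (unif K) μ T → IsOptimalMap (unif K) ν S →
      L2dist (unif K) T S ≤ C * W2 μ ν ^ α

end Vale.Agent.P074.H91
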