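import Vale.Agent.P074.H91.Optimal

open MeasureTheory Set
open scoped ENNReal NNReal

namespace Vale.Agent.P074.H91

variable {n : ℕ}

/-- lower corner of the witness box -/
noncomputable def boxA (n : ℕ) (ε : ℝ) (i : Fin (n + 2)) : ℝ :=
  if i = 0 then ε / 3 else if i = 1 then 1 / 4 else -(1 / 2)

/-- upper corner of the witness box -/
noncomputable def boxB (n : ℕ) (ε : ℝ) (i : Fin (n + 2)) : ℝ :=
  if i = 0 then 3 * ε / 4 else 1 / 2

/-- the witness box -/
def wbox (n : ℕ) (ε : ℝ) : Set (Sp (n + 2)) := {x | ∀ i, x i ∈ Icc (boxA n ε i) (boxB n ε i)}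

theorem volume_wbox (ε : ℝ) (hε : 0 ≤ ε) : volume (wbox n ε) = ENNReal.ofReal (5 * ε / 48) := by
  unfold wbox
  rw [volume_box, Fin.prod_univ_succ, Fin.prod_univ_succ]
  have h : ∀ i : Fin n, ENNReal.ofReal (boxB n ε i.succ.succ - boxA n ε i.succ.succ) = 1 := by
    intro i
    have h0 : i.succ.succ ≠ 0 := Fin.succ_ne_zero _
    have h1 : i.succ.succ ≠ 1 := Fin.succ_succ_ne_one _
    simp only [boxA, boxB, h0, h1, if_false]
    norm_num
  simp only [h, Finset.prod_const_one, mul_one]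
  have e0 : boxB n ε 0 - boxA n ε 0 = 5 * ε / 12 := by
    simp only [boxA, boxB, if_true]; ring
  have e1 : boxB n ε (Fin.succ 0) - boxA n ε (Fin.succ 0) = 1 / 4 := by
    have h11 : (Fin.succ 0 : Fin (n + 2)) = 1 := rfl
    simp only [boxA, boxB, h11, if_true]; norm_num
  rw [e0, e1, ← ENNReal.ofReal_mul (by positivity)]
  congr 1
  ring

theorem measurableSet_wbox (ε : ℝ) : MeasurableSet (wbox n ε) := by
  unfold wbox
  have : {x : Sp (n + 2) | ∀ i, x i ∈ Icc (boxA n ε i) (boxB n ε i)}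
      = ⋂ i, {x : Sp (n + 2) | x i ∈ Icc (boxA n ε i) (boxB n ε i)} := by
    ext x; simp
  rw [this]
  refine MeasurableSet.iInter fun i => ?_
  exact measurableSet_Icc.preimage (by fun_prop)

theorem wbox_subset_cube (ε : ℝ) (hε : 0 ≤ ε) (hε1 : ε ≤ 1 / 2) : wbox n ε ⊆ cube (n + 2) := by
  intro x hx i
  have := hx i
  unfold boxA boxB at this
  split_ifs at this <;> constructor <;> linarith [this.1, this.2]

theorem one_le_edist_of_mem_wbox (ε : ℝ) (hε : 0 < ε) (x : Sp (n + 2)) (hx : x ∈ wbox n ε) :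
    1 ≤ edist (Tmap n ε 1 x) (Tmap n ε (-1) x) ^ 2 := by
  have h0 := hx 0
  have h1 := hx 1
  have h10 : (1 : Fin (n + 2)) ≠ 0 := by simp
  simp only [boxA, boxB, h10, if_true, if_false, mem_Icc] at h0 h1
  have hpos : 0 < x 0 := by linarith [h0.1]
  have habs : |x 0| = x 0 := abs_of_pos hpos
  have hT1 : Tmap n ε 1 x = EuclideanSpace.single 1 (1 * ε) := by
    have : |x 0| ≤ ε / 2 + 1 * ε * x 1 := by rw [habs]; nlinarith [h0.2, h1.1]
    simp only [Tmap, this, if_true]
  have hT2 : Tmap n ε (-1) x = EuclideanSpace.single 0 1 := by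
    have : ¬ |x 0| ≤ ε / 2 + -1 * ε * x 1 := by rw [habs]; intro hh; nlinarith [h0.1, h1.1]
    simp only [Tmap, this, hpos, if_true, if_false]
  rw [hT1, hT2, edist_sq_eq, norm_sub_single_sq]
  rw [← ENNReal.ofReal_one]
  apply ENNReal.ofReal_le_ofReal
  simp
  positivity

theorem lower_bound (ε : ℝ) (hε : 0 < ε) (hε1 : ε ≤ 1 / 2) :
    ENNReal.ofReal (5 * ε / 48) ≤
      ∫⁻ x, edist (Tmap n ε 1 x) (Tmap n ε (-1) x) ^ 2 ∂(unif (cube (n + 2))) := by
  rw [unif_cube, ← volume_wbox ε hε.le]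
  calc volume (wbox n ε) = ∫⁻ x in wbox n ε, 1 := by simp
    _ ≤ ∫⁻ x in wbox n ε, edist (Tmap n ε 1 x) (Tmap n ε (-1) x) ^ 2 :=
        setLIntegral_mono' (measurableSet_wbox ε) (fun x hx => one_le_edist_of_mem_wbox ε hε x hx)
    _ ≤ ∫⁻ x in cube (n + 2), edist (Tmap n ε 1 x) (Tmap n ε (-1) x) ^ 2 :=
        lintegral_mono_set (wbox_subset_cube ε hε.le hε1)

/-- lower corner of the slab -/
noncomputable def slabA (n : ℕ) (ε : ℝ) (i : Fin (n + 2)) : ℝ :=
  if i = 0 then -ε else -(1 / 2)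

/-- upper corner of the slab -/
noncomputable def slabB (n : ℕ) (ε : ℝ) (i : Fin (n + 2)) : ℝ :=
  if i = 0 then ε else 1 / 2

/-- the slab -/
def slab (n : ℕ) (ε : ℝ) : Set (Sp (n + 2)) := {x | ∀ i, x i ∈ Icc (slabA n ε i) (slabB n ε i)}

theorem volume_slab (ε : ℝ) : volume (slab n ε) = ENNReal.ofReal (2 * ε) := by
  unfold slab
  rw [volume_box, Fin.prod_univ_succ]
  have h : ∀ i : Fin (n + 1), ENNReal.ofReal (slabB n ε i.succ - slabA n ε i.succ) = 1 := by
    intro i
    have h0 : i.succ ≠ 0 := Fin.succ_ne_zero _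
    simp only [slabA, slabB, h0, if_false]
    norm_num
  simp only [h, Finset.prod_const_one, mul_one]
  congr 1
  simp only [slabA, slabB, if_true]; ring

theorem measurableSet_slab (ε : ℝ) : MeasurableSet (slab n ε) := by
  unfold slab
  have : {x : Sp (n + 2) | ∀ i, x i ∈ Icc (slabA n ε i) (slabB n ε i)}
      = ⋂ i, {x : Sp (n + 2) | x i ∈ Icc (slabA n ε i) (slabB n ε i)} := by
    ext x; simp
  rw [this]
  refine MeasurableSet.iInter fun i => ?_
  exact measurableSet_Icc.preimage (by fun_prop)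

theorem edist_coupling_le (ε : ℝ) (hε : 0 ≤ ε) (x : Sp (n + 2)) (hx : x ∈ cube (n + 2)) :
    edist (Tmap n ε 1 x) (Tmap n ε (-1) (refl1 n x)) ^ 2
      ≤ (slab n ε).indicator (fun _ => ENNReal.ofReal (4 * ε ^ 2)) x := by
  by_cases hmid : |x 0| ≤ ε / 2 + 1 * ε * x 1
  · have hxs : x ∈ slab n ε := by
      intro i
      by_cases hi : i = 0
      · subst hi
        simp only [slabA, slabB, if_true]
        have h1 := (hx 1).2
        have : |x 0| ≤ ε := by nlinarith
        exact ⟨(abs_le.mp this).1, (abs_le.mp this).2⟩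
      · simp only [slabA, slabB, hi, if_false]
        exact hx i
    rw [indicator_of_mem hxs, Tmap_refl1_mid ε 1 x hmid]
    have hT1 : Tmap n ε 1 x = EuclideanSpace.single 1 (1 * ε) := by
      simp only [Tmap, hmid, if_true]
    rw [hT1, edist_sq_eq, norm_sub_single_sq]
    apply ENNReal.ofReal_le_ofReal
    simp
    nlinarith
  · rw [Tmap_refl1 ε 1 x hmid]
    simp

theorem upper_bound (ε : ℝ) (hε : 0 ≤ ε) :
    ∫⁻ x, edist (Tmap n ε 1 x) (Tmap n ε (-1) (refl1 n x)) ^ 2 ∂(unif (cube (n + 2)))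
      ≤ ENNReal.ofReal (8 * ε ^ 3) := by
  rw [unif_cube]
  calc ∫⁻ x in cube (n + 2), edist (Tmap n ε 1 x) (Tmap n ε (-1) (refl1 n x)) ^ 2
      ≤ ∫⁻ x in cube (n + 2), (slab n ε).indicator (fun _ => ENNReal.ofReal (4 * ε ^ 2)) x :=
        setLIntegral_mono' (measurableSet_cube _) (fun x hx => edist_coupling_le ε hε x hx)
    _ ≤ ∫⁻ x, (slab n ε).indicator (fun _ => ENNReal.ofReal (4 * ε ^ 2)) x :=
        setLIntegral_le_lintegral _ _
    _ = ENNReal.ofReal (4 * ε ^ 2) * volume (slab n ε) := by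
        rw [lintegral_indicator (measurableSet_slab ε), setLIntegral_const]
    _ = ENNReal.ofReal (8 * ε ^ 3) := by
        rw [volume_slab, ← ENNReal.ofReal_mul (by positivity)]
        congr 1
        ring

theorem W2_le (ε : ℝ) (hε : 0 ≤ ε) :
    W2 ((unif (cube (n + 2))).map (Tmap n ε 1)) ((unif (cube (n + 2))).map (Tmap n ε (-1)))
      ≤ ENNReal.ofReal (8 * ε ^ 3) ^ (1 / 2 : ℝ) := by
  have hmp : (unif (cube (n + 2))).map (Tmap n ε (-1))
      = (unif (cube (n + 2))).map (fun x => Tmap n ε (-1) (refl1 n x)) := by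
    have h1 : (unif (cube (n + 2))).map (refl1 n) = unif (cube (n + 2)) := by
      rw [unif_cube]
      exact measurePreserving_refl1.map_eq
    conv_lhs => rw [← h1]
    rw [Measure.map_map (measurable_Tmap ε (-1)) (refl1 n).continuous.measurable]
    rfl
  rw [hmp]
  refine (W2_map_map_le _ (measurable_Tmap ε 1)
    ((measurable_Tmap ε (-1)).comp (refl1 n).continuous.measurable)).trans ?_
  exact ENNReal.rpow_le_rpow (upper_bound ε hε) (by norm_num)

end Vale.Agent.P074.H91
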