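import Vale.Agent.P074.H91.Estimates

open MeasureTheory Set Filter Topology
open scoped ENNReal NNReal

namespace Vale.Agent.P074.H91

variable {n : ℕ}

theorem real_contradiction (C α : ℝ) (hα : 1 / 3 < α)
    (h : ∀ ε : ℝ, 0 < ε → ε ≤ 1 / 2 →
      (5 * ε / 48) ^ (1 / 2 : ℝ) ≤ C * ((8 * ε ^ 3) ^ (1 / 2 : ℝ)) ^ α) : False := by
  set β : ℝ := (3 * α - 1) / 2 with hβ
  have hβpos : 0 < β := by rw [hβ]; linarith
  have key : ∀ ε : ℝ, 0 < ε → ε ≤ 1 / 2 →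
      (5 / 48 : ℝ) ^ (1 / 2 : ℝ) ≤ C * (8 : ℝ) ^ (α / 2) * ε ^ β := by
    intro ε hε hε1
    have h1 := h ε hε hε1
    have e1 : (5 * ε / 48) ^ (1 / 2 : ℝ) = (5 / 48 : ℝ) ^ (1 / 2 : ℝ) * ε ^ (1 / 2 : ℝ) := by
      rw [← Real.mul_rpow (by norm_num) hε.le]
      congr 1
      ring
    have e2 : ((8 * ε ^ 3) ^ (1 / 2 : ℝ)) ^ α = (8 : ℝ) ^ (α / 2) * (ε ^ β * ε ^ (1 / 2 : ℝ)) := by
      rw [← Real.rpow_mul (by positivity), Real.mul_rpow (by norm_num) (by positivity),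
        ← Real.rpow_natCast ε 3, ← Real.rpow_mul hε.le, ← Real.rpow_add hε]
      congr 2
      · ring
      · rw [hβ]; push_cast; ring
    rw [e1, e2] at h1
    have hpos : 0 < ε ^ (1 / 2 : ℝ) := Real.rpow_pos_of_pos hε _
    have h2 : (5 / 48 : ℝ) ^ (1 / 2 : ℝ) * ε ^ (1 / 2 : ℝ)
        ≤ (C * (8 : ℝ) ^ (α / 2) * ε ^ β) * ε ^ (1 / 2 : ℝ) := by
      calc _ ≤ _ := h1
        _ = _ := by ring
    exact le_of_mul_le_mul_right h2 hpos
  have hlim : Tendsto (fun ε : ℝ => C * (8 : ℝ) ^ (α / 2) * ε ^ β) (𝓝[>] 0) (𝓝 0) := by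
    have h0 : Tendsto (fun ε : ℝ => ε ^ β) (𝓝 0) (𝓝 ((0 : ℝ) ^ β)) :=
      (Real.continuousAt_rpow_const 0 β (Or.inr hβpos.le)).tendsto
    rw [Real.zero_rpow hβpos.ne'] at h0
    have h1 : Tendsto (fun ε : ℝ => ε ^ β) (𝓝[>] 0) (𝓝 0) := h0.mono_left nhdsWithin_le_nhds
    have := h1.const_mul (C * (8 : ℝ) ^ (α / 2))
    simpa using this
  have hev : ∀ᶠ ε : ℝ in 𝓝[>] 0, (5 / 48 : ℝ) ^ (1 / 2 : ℝ) ≤ C * (8 : ℝ) ^ (α / 2) * ε ^ β := by
    have : Ioc (0 : ℝ) (1 / 2) ∈ 𝓝[>] (0 : ℝ) := Ioc_mem_nhdsGT (by norm_num)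
    filter_upwards [this] with ε hε
    exact key ε hε.1 hε.2
  have hle : (5 / 48 : ℝ) ^ (1 / 2 : ℝ) ≤ 0 := ge_of_tendsto hlim hev
  have hpos : (0 : ℝ) < (5 / 48 : ℝ) ^ (1 / 2 : ℝ) := Real.rpow_pos_of_pos (by norm_num) _
  linarith

instance isProbabilityMeasure_unif_cube (d : ℕ) : IsProbabilityMeasure (unif (cube d)) := by
  rw [unif_cube]
  exact ⟨by simp [volume_cube]⟩

theorem Tmap_mem_closedBall (ε s : ℝ) (hε0 : 0 ≤ ε) (hε1 : ε ≤ 1) (hs : |s| = 1) (x : Sp (n + 2)) :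
    Tmap n ε s x ∈ Metric.closedBall (0 : Sp (n + 2)) 2 := by
  rw [mem_closedBall_zero_iff]
  unfold Tmap
  split_ifs
  · rw [PiLp.norm_single, Real.norm_eq_abs, abs_mul, hs, abs_of_nonneg hε0]; linarith
  · rw [PiLp.norm_single]; norm_num
  · rw [PiLp.norm_single]; norm_num

theorem map_Tmap_compl (ε s : ℝ) (hε0 : 0 ≤ ε) (hε1 : ε ≤ 1) (hs : |s| = 1) :
    ((unif (cube (n + 2))).map (Tmap n ε s)) (Metric.closedBall (0 : Sp (n + 2)) 2)ᶜ = 0 := by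
  rw [Measure.map_apply (measurable_Tmap ε s) Metric.isClosed_closedBall.measurableSet.compl]
  have : Tmap n ε s ⁻¹' (Metric.closedBall (0 : Sp (n + 2)) 2)ᶜ = ∅ := by
    ext x
    simp only [mem_preimage, mem_compl_iff, mem_empty_iff_false, iff_false, not_not]
    exact Tmap_mem_closedBall ε s hε0 hε1 hs x
  simp [this]

theorem not_admissible_aux (α : ℝ) (hα : 1 / 3 < α) : ¬ Admissible (n + 2) α := by
  intro hadm
  obtain ⟨C, hC⟩ := hadm (cube (n + 2)) (isCompact_cube _) (convex_cube _)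
    (interior_cube_nonempty _) (Metric.closedBall 0 2) (isCompact_closedBall 0 2)
    ⟨0, by simp⟩
  apply real_contradiction (C : ℝ) α hα
  intro ε hε hε1
  have hαpos : 0 < α := by linarith
  have hmain := hC ((unif (cube (n + 2))).map (Tmap n ε 1)) ((unif (cube (n + 2))).map (Tmap n ε (-1)))
    (Measure.isProbabilityMeasure_map (measurable_Tmap ε 1).aemeasurable)
    (Measure.isProbabilityMeasure_map (measurable_Tmap ε (-1)).aemeasurable)
    (map_Tmap_compl ε 1 hε.le (by linarith) (by simp))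
    (map_Tmap_compl ε (-1) hε.le (by linarith) (by simp))
    (Tmap n ε 1) (Tmap n ε (-1))
    (isOptimalMap_Tmap ε 1 hε.le (by linarith) (by norm_num))
    (isOptimalMap_Tmap ε (-1) hε.le (by linarith) (by norm_num))
  have hlow : ENNReal.ofReal (5 * ε / 48) ^ (1 / 2 : ℝ)
      ≤ L2dist (unif (cube (n + 2))) (Tmap n ε 1) (Tmap n ε (-1)) :=
    ENNReal.rpow_le_rpow (lower_bound ε hε hε1) (by norm_num)
  have hup : (C : ℝ≥0∞) * W2 ((unif (cube (n + 2))).map (Tmap n ε 1))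
      ((unif (cube (n + 2))).map (Tmap n ε (-1))) ^ α
      ≤ (C : ℝ≥0∞) * (ENNReal.ofReal (8 * ε ^ 3) ^ (1 / 2 : ℝ)) ^ α := by
    gcongr
    exact W2_le ε hε.le
  have hall := hlow.trans (hmain.trans hup)
  rw [ENNReal.ofReal_rpow_of_pos (by positivity), ENNReal.ofReal_rpow_of_pos (by positivity),
    ENNReal.ofReal_rpow_of_pos (by positivity), ← ENNReal.ofReal_coe_nnreal,
    ← ENNReal.ofReal_mul C.coe_nonneg] at hall
  exact (ENNReal.ofReal_le_ofReal_iff (by positivity)).mp hall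

theorem admissible_le_third (d : ℕ) (hd : 2 ≤ d) (α : ℝ) (h : Admissible d α) : α ≤ 1 / 3 := by
  obtain ⟨n, rfl⟩ := Nat.exists_eq_add_of_le' hd
  by_contra hcon
  exact not_admissible_aux α (not_le.mp hcon) h

end Vale.Agent.P074.H91
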