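import Vale.Agent.P074.H91.Defs

open MeasureTheory Set
open scoped ENNReal NNReal

namespace Vale.Agent.P074.H91

variable {d : ℕ}

/-- Dual (weights) criterion for optimality. -/
theorem isOptimalMap_of_weights (ρ : Measure (Sp d)) (T : Sp d → Sp d) (hT : Measurable T)
    (D : Set (Sp d)) (hD : MeasurableSet D) (hTD : ∀ x, T x ∈ D)
    (w : Sp d → ℝ≥0∞) (hw : Measurable w) (hfin : ∫⁻ x, w (T x) ∂ρ ≠ ⊤)
    (hmin : ∀ x, ∀ y ∈ D, edist x (T x) ^ 2 + w y ≤ edist x y ^ 2 + w (T x)) :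
    IsOptimalMap ρ (ρ.map T) T := by
  refine ⟨hT, rfl, fun S hS hmap => ?_⟩
  have hSD : ∀ᵐ x ∂ρ, S x ∈ D := by
    have h1 : (ρ.map S) Dᶜ = 0 := by
      rw [hmap, Measure.map_apply hT hD.compl]
      have : T ⁻¹' Dᶜ = ∅ := by
        ext x; simp [hTD x]
      simp [this]
    rw [Measure.map_apply hS hD.compl] at h1
    filter_upwards [compl_mem_ae_iff.mpr h1] with x hx
    simpa using hx
  have hint : ∫⁻ x, w (S x) ∂ρ = ∫⁻ x, w (T x) ∂ρ := by
    rw [← lintegral_map hw hS, ← lintegral_map hw hT, hmap]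
  have hmeasT : Measurable fun x => edist x (T x) ^ 2 := by fun_prop
  have hmeasS : Measurable fun x => edist x (S x) ^ 2 := by fun_prop
  have key : ∫⁻ x, edist x (T x) ^ 2 ∂ρ + ∫⁻ x, w (S x) ∂ρ
      ≤ ∫⁻ x, edist x (S x) ^ 2 ∂ρ + ∫⁻ x, w (T x) ∂ρ := by
    rw [← lintegral_add_left hmeasT, ← lintegral_add_left hmeasS]
    apply lintegral_mono_ae
    filter_upwards [hSD] with x hx
    exact hmin x (S x) hx
  rw [hint] at key
  exact (ENNReal.add_le_add_iff_right hfin).mp key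

/-- Upper bound for `W2` through the coupling induced by two maps. -/
theorem W2_map_map_le (ρ : Measure (Sp d)) {f g : Sp d → Sp d}
    (hf : Measurable f) (hg : Measurable g) :
    W2 (ρ.map f) (ρ.map g) ≤ (∫⁻ x, edist (f x) (g x) ^ 2 ∂ρ) ^ (1 / 2 : ℝ) := by
  unfold W2
  apply ENNReal.rpow_le_rpow _ (by norm_num)
  refine iInf₂_le_of_le (ρ.map fun x => (f x, g x)) ⟨?_, ?_⟩ ?_
  · rw [Measure.map_map measurable_fst (hf.prodMk hg)]; rfl
  · rw [Measure.map_map measurable_snd (hf.prodMk hg)]; rfl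
  · rw [lintegral_map (by fun_prop) (hf.prodMk hg)]

end Vale.Agent.P074.H91
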