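import Vale.Agent.P074.H91.Cube

open MeasureTheory Set
open scoped ENNReal NNReal

namespace Vale.Agent.P074.H91

variable {n : ℕ}

/-- The reflection flipping the coordinate of index `1`. -/
noncomputable def refl1 (n : ℕ) : Sp (n + 2) ≃ₗᵢ[ℝ] Sp (n + 2) :=
  LinearIsometryEquiv.piLpCongrRight 2
    (fun i => if i = 1 then LinearIsometryEquiv.neg ℝ else LinearIsometryEquiv.refl ℝ ℝ)

theorem refl1_apply_one (x : Sp (n + 2)) : refl1 n x 1 = - x 1 := by
  simp [refl1]

theorem refl1_apply_of_ne (x : Sp (n + 2)) {i : Fin (n + 2)} (h : i ≠ 1) :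
    refl1 n x i = x i := by
  simp [refl1, h]

theorem refl1_preimage_cube : refl1 n ⁻¹' cube (n + 2) = cube (n + 2) := by
  ext x
  simp only [cube, mem_preimage, mem_setOf_eq]
  constructor
  · intro h i
    by_cases hi : i = 1
    · subst hi
      have := h 1
      rw [refl1_apply_one] at this
      exact ⟨by linarith [this.2], by linarith [this.1]⟩
    · have := h i
      rwa [refl1_apply_of_ne x hi] at this
  · intro h i
    by_cases hi : i = 1
    · subst hi
      have := h 1
      rw [refl1_apply_one]
      exact ⟨by linarith [this.2], by linarith [this.1]⟩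
    · rw [refl1_apply_of_ne x hi]
      exact h i

theorem measurePreserving_refl1 :
    MeasurePreserving (refl1 n) (volume.restrict (cube (n + 2))) (volume.restrict (cube (n + 2))) := by
  have h := (refl1 n).measurePreserving.restrict_preimage (measurableSet_cube (n + 2))
  rwa [refl1_preimage_cube] at h

/-- The three-valued (power diagram) map. -/
noncomputable def Tmap (n : ℕ) (ε s : ℝ) (x : Sp (n + 2)) : Sp (n + 2) :=
  if |x 0| ≤ ε / 2 + s * ε * x 1 then EuclideanSpace.single 1 (s * ε)
  else if 0 < x 0 then EuclideanSpace.single 0 1 else EuclideanSpace.single 0 (-1)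

theorem measurable_Tmap (ε s : ℝ) : Measurable (Tmap n ε s) := by
  unfold Tmap
  refine Measurable.ite (measurableSet_le (by fun_prop) (by fun_prop)) measurable_const ?_
  exact Measurable.ite (measurableSet_lt (by fun_prop) (by fun_prop)) measurable_const
    measurable_const

theorem Tmap_refl1 (ε s : ℝ) (x : Sp (n + 2)) (h : ¬ |x 0| ≤ ε / 2 + s * ε * x 1) :
    Tmap n ε (-s) (refl1 n x) = Tmap n ε s x := by
  have h0 : refl1 n x 0 = x 0 := refl1_apply_of_ne x (by simp)
  have h1 : refl1 n x 1 = - x 1 := refl1_apply_one x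
  have h' : ¬ |x 0| ≤ ε / 2 + -s * ε * -x 1 := by
    intro hh; apply h; linarith
  simp only [Tmap, h0, h1, h, h', if_false]

theorem Tmap_refl1_mid (ε s : ℝ) (x : Sp (n + 2)) (h : |x 0| ≤ ε / 2 + s * ε * x 1) :
    Tmap n ε (-s) (refl1 n x) = EuclideanSpace.single 1 (-s * ε) := by
  have h0 : refl1 n x 0 = x 0 := refl1_apply_of_ne x (by simp)
  have h1 : refl1 n x 1 = - x 1 := refl1_apply_one x
  have h' : |x 0| ≤ ε / 2 + -s * ε * -x 1 := by linarith
  simp only [Tmap, h0, h1, h', if_true]

end Vale.Agent.P074.H91
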