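import Vale.Agent.P074.H91.Maps

open MeasureTheory Set
open scoped ENNReal NNReal

namespace Vale.Agent.P074.H91

variable {n : ℕ}

theorem norm_sub_single_sq {d : ℕ} (x : Sp d) (i : Fin d) (a : ℝ) :
    ‖x - EuclideanSpace.single i a‖ ^ 2 = ‖x‖ ^ 2 - 2 * a * x i + a ^ 2 := by
  rw [norm_sub_sq_real, EuclideanSpace.inner_single_right, PiLp.norm_single]
  simp
  ring

theorem edist_sq_eq {d : ℕ} (x y : Sp d) : edist x y ^ 2 = ENNReal.ofReal (‖x - y‖ ^ 2) := by
  rw [edist_dist, dist_eq_norm, ENNReal.ofReal_pow (norm_nonneg _)]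

/-- The weights of the power diagram. -/
noncomputable def wfun (n : ℕ) (ε s : ℝ) (y : Sp (n + 2)) : ℝ≥0∞ :=
  if y = EuclideanSpace.single 1 (s * ε) then ENNReal.ofReal (ε ^ 2) else ENNReal.ofReal (1 - ε)

theorem measurable_wfun (ε s : ℝ) : Measurable (wfun n ε s) := by
  unfold wfun
  exact Measurable.ite (measurableSet_singleton _) measurable_const measurable_const

theorem single_zero_ne_single_one (a b : ℝ) (ha : a ≠ 0) :
    (EuclideanSpace.single 0 a : Sp (n + 2)) ≠ EuclideanSpace.single 1 b := by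
  intro h
  have := congrArg (fun v : Sp (n + 2) => v 0) h
  simp at this
  exact ha this

theorem Tmap_min (ε s : ℝ) (hε0 : 0 ≤ ε) (hε1 : ε ≤ 1) (hs : s * s = 1) (x : Sp (n + 2))
    (y : Sp (n + 2))
    (hy : y ∈ ({EuclideanSpace.single 1 (s * ε), EuclideanSpace.single 0 1,
      EuclideanSpace.single 0 (-1)} : Set (Sp (n + 2)))) :
    edist x (Tmap n ε s x) ^ 2 + wfun n ε s y ≤ edist x y ^ 2 + wfun n ε s (Tmap n ε s x) := by
  have hp : (EuclideanSpace.single 0 1 : Sp (n + 2)) ≠ EuclideanSpace.single 1 (s * ε) :=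
    single_zero_ne_single_one _ _ one_ne_zero
  have hq : (EuclideanSpace.single 0 (-1) : Sp (n + 2)) ≠ EuclideanSpace.single 1 (s * ε) :=
    single_zero_ne_single_one _ _ (by norm_num)
  have hsq : (s * ε) ^ 2 = ε ^ 2 := by
    have : (s * ε) ^ 2 = (s * s) * ε ^ 2 := by ring
    rw [this, hs, one_mul]
  have h1ε : 0 ≤ 1 - ε := by linarith
  have hε2 : 0 ≤ ε ^ 2 := by positivity
  have habs1 := le_abs_self (x 0)
  have habs2 := neg_abs_le (x 0)
  simp only [mem_insert_iff, mem_singleton_iff] at hy
  by_cases hmid : |x 0| ≤ ε / 2 + s * ε * x 1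
  · have hT : Tmap n ε s x = EuclideanSpace.single 1 (s * ε) := by simp [Tmap, hmid]
    rw [hT]
    rcases hy with rfl | rfl | rfl
    · exact le_rfl
    · simp only [wfun, hp, if_true, if_false, edist_sq_eq, norm_sub_single_sq]
      rw [← ENNReal.ofReal_add (by rw [← norm_sub_single_sq]; positivity) h1ε,
        ← ENNReal.ofReal_add (by rw [← norm_sub_single_sq]; positivity) hε2]
      apply ENNReal.ofReal_le_ofReal
      rw [hsq]
      nlinarith
    · simp only [wfun, hq, if_true, if_false, edist_sq_eq, norm_sub_single_sq]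
      rw [← ENNReal.ofReal_add (by rw [← norm_sub_single_sq]; positivity) h1ε,
        ← ENNReal.ofReal_add (by rw [← norm_sub_single_sq]; positivity) hε2]
      apply ENNReal.ofReal_le_ofReal
      rw [hsq]
      nlinarith
  · by_cases hpos : 0 < x 0
    · have hT : Tmap n ε s x = EuclideanSpace.single 0 1 := by simp [Tmap, hmid, hpos]
      rw [hT]
      have habs : |x 0| = x 0 := abs_of_pos hpos
      rw [habs] at hmid
      rcases hy with rfl | rfl | rfl
      · simp only [wfun, hp, if_true, if_false, edist_sq_eq, norm_sub_single_sq]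
        rw [← ENNReal.ofReal_add (by rw [← norm_sub_single_sq]; positivity) hε2,
          ← ENNReal.ofReal_add (by rw [← norm_sub_single_sq]; positivity) h1ε]
        apply ENNReal.ofReal_le_ofReal
        rw [hsq]
        nlinarith
      · exact le_rfl
      · simp only [wfun, hp, hq, if_false, edist_sq_eq, norm_sub_single_sq]
        gcongr ?_ + _
        apply ENNReal.ofReal_le_ofReal
        nlinarith
    · have hT : Tmap n ε s x = EuclideanSpace.single 0 (-1) := by simp [Tmap, hmid, hpos]
      rw [hT]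
      have habs : |x 0| = - x 0 := abs_of_nonpos (not_lt.mp hpos)
      rw [habs] at hmid
      rcases hy with rfl | rfl | rfl
      · simp only [wfun, hq, if_true, if_false, edist_sq_eq, norm_sub_single_sq]
        rw [← ENNReal.ofReal_add (by rw [← norm_sub_single_sq]; positivity) hε2,
          ← ENNReal.ofReal_add (by rw [← norm_sub_single_sq]; positivity) h1ε]
        apply ENNReal.ofReal_le_ofReal
        rw [hsq]
        nlinarith
      · simp only [wfun, hp, hq, if_false, edist_sq_eq, norm_sub_single_sq]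
        gcongr ?_ + _
        apply ENNReal.ofReal_le_ofReal
        nlinarith
      · exact le_rfl

theorem Tmap_mem (ε s : ℝ) (x : Sp (n + 2)) :
    Tmap n ε s x ∈ ({EuclideanSpace.single 1 (s * ε), EuclideanSpace.single 0 1,
      EuclideanSpace.single 0 (-1)} : Set (Sp (n + 2))) := by
  unfold Tmap
  split_ifs <;> simp

theorem isOptimalMap_Tmap (ε s : ℝ) (hε0 : 0 ≤ ε) (hε1 : ε ≤ 1) (hs : s * s = 1) :
    IsOptimalMap (unif (cube (n + 2))) ((unif (cube (n + 2))).map (Tmap n ε s)) (Tmap n ε s) := by
  refine isOptimalMap_of_weights _ _ (measurable_Tmap ε s) _ ?_ (Tmap_mem ε s) (wfun n ε s)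
    (measurable_wfun ε s) ?_ (Tmap_min ε s hε0 hε1 hs)
  · exact (Set.toFinite _).measurableSet
  · have hb : ∀ x, wfun n ε s (Tmap n ε s x) ≤ ENNReal.ofReal (ε ^ 2) + ENNReal.ofReal (1 - ε) := by
      intro x
      unfold wfun
      split_ifs
      · exact le_self_add
      · exact le_add_self
    refine ne_of_lt ((lintegral_mono hb).trans_lt ?_)
    rw [lintegral_const, unif_cube]
    simp [volume_cube]

end Vale.Agent.P074.H91
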